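import Vale.Agent.P063.Main

namespace Vale.Agent.Results.P063.Width

open Vale.Agent.P063

/-- The Friedgut-Kalai threshold-width conjecture for `r`-uniform hypergraph properties, every
`r ≥ 2` (graph properties are the case `r = 2`, where the exponent is `-2`). -/
theorem result :
    ∀ (r n : ℕ), 2 ≤ r → r ≤ n → ∀ ε : ℝ, 0 < ε → ε < 1 / 2 →
      ∀ P : Set (Hypergraph n r), IsProperty P → IsIncreasing P → IsNontrivial P →
        width ε P ≤
          4000 * (r : ℝ) * Real.log (1 / (2 * ε)) *
            Real.log (n : ℝ) ^ (-((r : ℝ) / ((r : ℝ) - 1))) :=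
  fun _ _ hr hn ε he0 he1 P hP hI hN => width_bound hr hn P hP hI hN ε he0 he1

end Vale.Agent.Results.P063.Width
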